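import Mathlib

/-!
# Logarithmic Brunn–Minkowski inequality: closure under Cartesian products (P227)

`ℝ^ι` is modelled as `ι → ℝ` with the Euclidean pairing `x ⬝ᵥ u = ∑ i, x i * u i` and Lebesgue
measure `volume`.
-/

open MeasureTheory Set

namespace Vale.Agent.Lib.Helper8.LogBM

set_option linter.dupNamespace false

/-- Support function `h_K(u) = sup_{y ∈ K} ⟨y, u⟩` of a set `K ⊆ ℝ^ι`. -/
noncomputable def supp {ι : Type*} [Fintype ι] (K : Set (ι → ℝ)) (u : ι → ℝ) : ℝ :=
  sSup ((fun y : ι → ℝ => y ⬝ᵥ u) '' K)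

/-- The logarithmic combination `(1-λ)K +₀ λL`: the Wulff body of `h_K^(1-λ) h_L^λ`, i.e. the
set of all `x` with `⟨x, u⟩ ≤ h_K(u)^(1-λ) h_L(u)^λ` for every Euclidean unit vector `u`. -/
def logSum {ι : Type*} [Fintype ι] (lam : ℝ) (K L : Set (ι → ℝ)) : Set (ι → ℝ) :=
  {x | ∀ u : ι → ℝ, u ⬝ᵥ u = 1 → x ⬝ᵥ u ≤ supp K u ^ (1 - lam) * supp L u ^ lam}

/-- The logarithmic Brunn–Minkowski inequality `|(1-λ)K +₀ λL| ≥ |K|^(1-λ) |L|^λ` for the pair
`K, L ⊆ ℝ^ι`. -/
def LogBM {ι : Type*} [Fintype ι] (lam : ℝ) (K L : Set (ι → ℝ)) : Prop :=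
  volume K ^ (1 - lam) * volume L ^ lam ≤ volume (logSum lam K L)

/-- Cartesian product `A × B ⊆ ℝ^(ι ⊕ κ)` of `A ⊆ ℝ^ι` and `B ⊆ ℝ^κ`. -/
def prodSet {ι κ : Type*} (A : Set (ι → ℝ)) (B : Set (κ → ℝ)) : Set (ι ⊕ κ → ℝ) :=
  {z | (fun i => z (Sum.inl i)) ∈ A ∧ (fun j => z (Sum.inr j)) ∈ B}

/-- The segment `[-s, s] ⊆ ℝ^1` (coordinates indexed by `Unit`). -/
def seg (s : ℝ) : Set (Unit → ℝ) := {x | |x ()| ≤ s}

section basic
variable {ι : Type*} [Fintype ι]

theorem supp_bdd {K : Set (ι → ℝ)} (hb : Bornology.IsBounded K) (u : ι → ℝ) :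
    BddAbove ((fun y : ι → ℝ => y ⬝ᵥ u) '' K) := by
  obtain ⟨R, hR⟩ := hb.exists_norm_le
  refine ⟨∑ i, R * |u i|, ?_⟩
  rintro _ ⟨y, hy, rfl⟩
  simp only [dotProduct]
  refine Finset.sum_le_sum fun i _ => ?_
  have h1 : |y i| ≤ R := by
    have := norm_le_pi_norm y i
    rw [Real.norm_eq_abs] at this
    exact this.trans (hR y hy)
  calc y i * u i ≤ |y i * u i| := le_abs_self _
    _ = |y i| * |u i| := abs_mul _ _
    _ ≤ R * |u i| := by gcongr

theorem le_supp {K : Set (ι → ℝ)} (hb : Bornology.IsBounded K) {y : ι → ℝ} (hy : y ∈ K)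
    (u : ι → ℝ) : y ⬝ᵥ u ≤ supp K u :=
  le_csSup (supp_bdd hb u) ⟨y, hy, rfl⟩

theorem supp_le {K : Set (ι → ℝ)} (hne : K.Nonempty) {u : ι → ℝ} {c : ℝ}
    (h : ∀ y ∈ K, y ⬝ᵥ u ≤ c) : supp K u ≤ c :=
  csSup_le (hne.image _) (by rintro _ ⟨y, hy, rfl⟩; exact h y hy)

theorem supp_nonneg {K : Set (ι → ℝ)} (hne : K.Nonempty) (hb : Bornology.IsBounded K)
    (hs : ∀ y ∈ K, -y ∈ K) (u : ι → ℝ) : 0 ≤ supp K u := by
  obtain ⟨y, hy⟩ := hne
  have h1 := le_supp hb hy u
  have h2 := le_supp hb (hs y hy) u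
  rw [neg_dotProduct] at h2
  linarith

/-- Homogeneity (one inequality suffices): `t * h_K(u) ≤ h_K(t u)` for `t > 0`. -/
theorem mul_supp_le {K : Set (ι → ℝ)} (hne : K.Nonempty) (hb : Bornology.IsBounded K)
    {t : ℝ} (ht : 0 < t) (u : ι → ℝ) : t * supp K u ≤ supp K (t • u) := by
  have : supp K u ≤ supp K (t • u) / t := by
    refine supp_le hne fun y hy => ?_
    rw [le_div_iff₀ ht]
    have := le_supp hb hy (t • u)
    rw [dotProduct_smul, smul_eq_mul] at this
    linarith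
  rw [le_div_iff₀ ht] at this
  linarith

/-- Two-term Hölder inequality. -/
theorem holder2 {a b c d lam : ℝ} (ha : 0 ≤ a) (hb : 0 ≤ b) (hc : 0 ≤ c) (hd : 0 ≤ d)
    (h0 : 0 < lam) (h1 : lam < 1) :
    a ^ (1 - lam) * c ^ lam + b ^ (1 - lam) * d ^ lam ≤ (a + b) ^ (1 - lam) * (c + d) ^ lam := by
  have h1' : 0 < 1 - lam := by linarith
  rcases (add_nonneg ha hb).eq_or_lt with hS | hS
  · have ha0 : a = 0 := by linarith
    have hb0 : b = 0 := by linarith
    rw [ha0, hb0, Real.zero_rpow h1'.ne']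
    simp
    positivity
  rcases (add_nonneg hc hd).eq_or_lt with hT | hT
  · have hc0 : c = 0 := by linarith
    have hd0 : d = 0 := by linarith
    rw [hc0, hd0, Real.zero_rpow h0.ne']
    simp
    positivity
  set S := a + b with hSdef
  set T := c + d with hTdef
  have key : ∀ p q : ℝ, 0 ≤ p → 0 ≤ q →
      p ^ (1 - lam) * q ^ lam ≤
        S ^ (1 - lam) * T ^ lam * ((1 - lam) * (p / S) + lam * (q / T)) := by
    intro p q hp hq
    have hAG := Real.geom_mean_le_arith_mean2_weighted h1'.le h0.le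
      (div_nonneg hp hS.le) (div_nonneg hq hT.le) (by ring)
    have e1 : p ^ (1 - lam) = S ^ (1 - lam) * (p / S) ^ (1 - lam) := by
      rw [← Real.mul_rpow hS.le (div_nonneg hp hS.le)]
      congr 1
      field_simp
    have e2 : q ^ lam = T ^ lam * (q / T) ^ lam := by
      rw [← Real.mul_rpow hT.le (div_nonneg hq hT.le)]
      congr 1
      field_simp
    rw [e1, e2]
    have hpos : 0 ≤ S ^ (1 - lam) * T ^ lam := by positivity
    calc S ^ (1 - lam) * (p / S) ^ (1 - lam) * (T ^ lam * (q / T) ^ lam)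
        = S ^ (1 - lam) * T ^ lam * ((p / S) ^ (1 - lam) * (q / T) ^ lam) := by ring
      _ ≤ S ^ (1 - lam) * T ^ lam * ((1 - lam) * (p / S) + lam * (q / T)) :=
          mul_le_mul_of_nonneg_left hAG hpos
  have k1 := key a c ha hc
  have k2 := key b d hb hd
  have hsum : (1 - lam) * (a / S) + lam * (c / T) + ((1 - lam) * (b / S) + lam * (d / T)) = 1 := by
    have hS1 : a / S + b / S = 1 := by rw [← add_div]; exact div_self hS.ne'
    have hT1 : c / T + d / T = 1 := by rw [← add_div]; exact div_self hT.ne'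
    linear_combination (1 - lam) * hS1 + lam * hT1
  calc a ^ (1 - lam) * c ^ lam + b ^ (1 - lam) * d ^ lam
      ≤ S ^ (1 - lam) * T ^ lam * ((1 - lam) * (a / S) + lam * (c / T)) +
        S ^ (1 - lam) * T ^ lam * ((1 - lam) * (b / S) + lam * (d / T)) := add_le_add k1 k2
    _ = S ^ (1 - lam) * T ^ lam := by rw [← mul_add, hsum, mul_one]

/-- Membership in the logarithmic combination gives the inequality for every direction, not only
for unit vectors. -/
theorem logSum_all {lam : ℝ} (h0 : 0 < lam) (h1 : lam < 1) {K L : Set (ι → ℝ)}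
    (hKne : K.Nonempty) (hKb : Bornology.IsBounded K) (hKs : ∀ y ∈ K, -y ∈ K)
    (hLne : L.Nonempty) (hLb : Bornology.IsBounded L) (hLs : ∀ y ∈ L, -y ∈ L)
    {x : ι → ℝ} (hx : x ∈ logSum lam K L) (u : ι → ℝ) :
    x ⬝ᵥ u ≤ supp K u ^ (1 - lam) * supp L u ^ lam := by
  have h1' : 0 < 1 - lam := by linarith
  by_cases hu : u = 0
  · subst hu
    rw [dotProduct_zero]
    exact mul_nonneg (Real.rpow_nonneg (supp_nonneg hKne hKb hKs 0) _)
      (Real.rpow_nonneg (supp_nonneg hLne hLb hLs 0) _)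
  have hq : 0 < u ⬝ᵥ u := by
    have hnn : 0 ≤ u ⬝ᵥ u := Finset.sum_nonneg fun i _ => mul_self_nonneg (u i)
    rcases hnn.eq_or_lt with h | h
    · exact absurd (dotProduct_self_eq_zero.mp h.symm) hu
    · exact h
  set t := Real.sqrt (u ⬝ᵥ u) with ht
  have htpos : 0 < t := Real.sqrt_pos.mpr hq
  have htt : t * t = u ⬝ᵥ u := Real.mul_self_sqrt hq.le
  set v : ι → ℝ := t⁻¹ • u with hv
  have hvu : v ⬝ᵥ v = 1 := by
    rw [hv, smul_dotProduct, dotProduct_smul, smul_eq_mul, smul_eq_mul, ← htt]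
    field_simp
  have huv : u = t • v := by
    rw [hv, smul_smul, mul_inv_cancel₀ htpos.ne', one_smul]
  have hxv := hx v hvu
  have hA := supp_nonneg hKne hKb hKs v
  have hC := supp_nonneg hLne hLb hLs v
  have hA' : t * supp K v ≤ supp K u := by rw [huv]; exact mul_supp_le hKne hKb htpos v
  have hC' : t * supp L v ≤ supp L u := by rw [huv]; exact mul_supp_le hLne hLb htpos v
  have e : x ⬝ᵥ u = t * (x ⬝ᵥ v) := by
    rw [huv, dotProduct_smul, smul_eq_mul]
  have ht1 : t ^ (1 - lam) * t ^ lam = t := by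
    rw [← Real.rpow_add htpos]
    simp
  calc x ⬝ᵥ u = t * (x ⬝ᵥ v) := e
    _ ≤ t * (supp K v ^ (1 - lam) * supp L v ^ lam) := by gcongr
    _ = (t * supp K v) ^ (1 - lam) * (t * supp L v) ^ lam := by
        rw [Real.mul_rpow htpos.le hA, Real.mul_rpow htpos.le hC]
        calc t * (supp K v ^ (1 - lam) * supp L v ^ lam)
            = (t ^ (1 - lam) * t ^ lam) * (supp K v ^ (1 - lam) * supp L v ^ lam) := by rw [ht1]
          _ = _ := by ring
    _ ≤ supp K u ^ (1 - lam) * supp L u ^ lam := by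
        have i1 : (t * supp K v) ^ (1 - lam) ≤ supp K u ^ (1 - lam) :=
          Real.rpow_le_rpow (mul_nonneg htpos.le hA) hA' h1'.le
        have i2 : (t * supp L v) ^ lam ≤ supp L u ^ lam :=
          Real.rpow_le_rpow (mul_nonneg htpos.le hC) hC' h0.le
        exact mul_le_mul i1 i2 (Real.rpow_nonneg (mul_nonneg htpos.le hC) _)
          (Real.rpow_nonneg (supp_nonneg hKne hKb hKs u) _)

end basic

section product
variable {ι κ : Type*} [Fintype ι] [Fintype κ]

set_option linter.unusedSectionVars false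

theorem dot_sum (z u : ι ⊕ κ → ℝ) :
    z ⬝ᵥ u = (fun i => z (Sum.inl i)) ⬝ᵥ (fun i => u (Sum.inl i)) +
      (fun j => z (Sum.inr j)) ⬝ᵥ (fun j => u (Sum.inr j)) := by
  simp [dotProduct, Fintype.sum_sum_type]

theorem prodSet_nonempty {A : Set (ι → ℝ)} {B : Set (κ → ℝ)} (hA : A.Nonempty) (hB : B.Nonempty) :
    (prodSet A B).Nonempty := by
  obtain ⟨a, ha⟩ := hA
  obtain ⟨b, hb⟩ := hB
  exact ⟨Sum.elim a b, by simpa [prodSet] using ⟨ha, hb⟩⟩

theorem prodSet_bounded {A : Set (ι → ℝ)} {B : Set (κ → ℝ)} (hA : Bornology.IsBounded A)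
    (hB : Bornology.IsBounded B) : Bornology.IsBounded (prodSet A B) := by
  obtain ⟨R, hR⟩ := hA.exists_norm_le
  obtain ⟨R', hR'⟩ := hB.exists_norm_le
  rw [isBounded_iff_forall_norm_le]
  refine ⟨max R R', fun z hz => ?_⟩
  have hR0 : 0 ≤ R := by
    by_contra h
    have := norm_nonneg (fun i => z (Sum.inl i))
    linarith [hR _ hz.1]
  rw [pi_norm_le_iff_of_nonneg (le_max_of_le_left hR0)]
  rintro (i | j)
  · exact ((norm_le_pi_norm (fun i => z (Sum.inl i)) i).trans (hR _ hz.1)).trans (le_max_left _ _)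
  · exact ((norm_le_pi_norm (fun j => z (Sum.inr j)) j).trans (hR' _ hz.2)).trans (le_max_right _ _)

theorem prodSet_symm {A : Set (ι → ℝ)} {B : Set (κ → ℝ)} (hA : ∀ y ∈ A, -y ∈ A)
    (hB : ∀ y ∈ B, -y ∈ B) : ∀ z ∈ prodSet A B, -z ∈ prodSet A B := by
  intro z hz
  exact ⟨hA _ hz.1, hB _ hz.2⟩

theorem volume_prodSet (A : Set (ι → ℝ)) (B : Set (κ → ℝ)) :
    volume (prodSet A B) = volume A * volume B := by
  have hmp := volume_measurePreserving_sumPiEquivProdPi (fun _ : ι ⊕ κ => ℝ)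
  have hset : prodSet A B = (MeasurableEquiv.sumPiEquivProdPi (fun _ : ι ⊕ κ => ℝ)) ⁻¹' (A ×ˢ B) := by
    ext z
    rfl
  rw [hset, hmp.measure_preimage_equiv, Measure.volume_eq_prod, Measure.prod_prod]

/-- The support function of a product dominates the sum of the support functions. -/
theorem supp_prod_ge {A : Set (ι → ℝ)} {B : Set (κ → ℝ)} (hAne : A.Nonempty)
    (hAb : Bornology.IsBounded A) (hBne : B.Nonempty) (hBb : Bornology.IsBounded B)
    (u : ι ⊕ κ → ℝ) :
    supp A (fun i => u (Sum.inl i)) + supp B (fun j => u (Sum.inr j)) ≤ supp (prodSet A B) u := by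
  have hPb := prodSet_bounded hAb hBb
  have h : ∀ a ∈ A, ∀ b ∈ B, a ⬝ᵥ (fun i => u (Sum.inl i)) + b ⬝ᵥ (fun j => u (Sum.inr j)) ≤
      supp (prodSet A B) u := by
    intro a ha b hb
    have hz : Sum.elim a b ∈ prodSet A B := by simpa [prodSet] using ⟨ha, hb⟩
    have := le_supp hPb hz u
    rw [dot_sum] at this
    simpa using this
  have h2 : ∀ b ∈ B, b ⬝ᵥ (fun j => u (Sum.inr j)) ≤
      supp (prodSet A B) u - supp A (fun i => u (Sum.inl i)) := by
    intro b hb
    have : supp A (fun i => u (Sum.inl i)) ≤ supp (prodSet A B) u - b ⬝ᵥ (fun j => u (Sum.inr j)) :=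
      supp_le hAne fun a ha => by linarith [h a ha b hb]
    linarith
  have := supp_le hBne h2
  linarith

/-- The product of the two logarithmic combinations lies in the logarithmic combination of the
products. -/
theorem prodSet_logSum_subset {lam : ℝ} (h0 : 0 < lam) (h1 : lam < 1)
    {K₁ L₁ : Set (ι → ℝ)} {K₂ L₂ : Set (κ → ℝ)}
    (hK₁ne : K₁.Nonempty) (hK₁b : Bornology.IsBounded K₁) (hK₁s : ∀ y ∈ K₁, -y ∈ K₁)
    (hL₁ne : L₁.Nonempty) (hL₁b : Bornology.IsBounded L₁) (hL₁s : ∀ y ∈ L₁, -y ∈ L₁)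
    (hK₂ne : K₂.Nonempty) (hK₂b : Bornology.IsBounded K₂) (hK₂s : ∀ y ∈ K₂, -y ∈ K₂)
    (hL₂ne : L₂.Nonempty) (hL₂b : Bornology.IsBounded L₂) (hL₂s : ∀ y ∈ L₂, -y ∈ L₂) :
    prodSet (logSum lam K₁ L₁) (logSum lam K₂ L₂) ⊆
      logSum lam (prodSet K₁ K₂) (prodSet L₁ L₂) := by
  have h1' : 0 < 1 - lam := by linarith
  intro z hz u _
  set u₁ : ι → ℝ := fun i => u (Sum.inl i)
  set u₂ : κ → ℝ := fun j => u (Sum.inr j)
  have e1 := logSum_all h0 h1 hK₁ne hK₁b hK₁s hL₁ne hL₁b hL₁s hz.1 u₁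
  have e2 := logSum_all h0 h1 hK₂ne hK₂b hK₂s hL₂ne hL₂b hL₂s hz.2 u₂
  have ha := supp_nonneg hK₁ne hK₁b hK₁s u₁
  have hb := supp_nonneg hK₂ne hK₂b hK₂s u₂
  have hc := supp_nonneg hL₁ne hL₁b hL₁s u₁
  have hd := supp_nonneg hL₂ne hL₂b hL₂s u₂
  have hK := supp_prod_ge hK₁ne hK₁b hK₂ne hK₂b u
  have hL := supp_prod_ge hL₁ne hL₁b hL₂ne hL₂b u
  rw [dot_sum]
  calc (fun i => z (Sum.inl i)) ⬝ᵥ u₁ + (fun j => z (Sum.inr j)) ⬝ᵥ u₂
      ≤ supp K₁ u₁ ^ (1 - lam) * supp L₁ u₁ ^ lam + supp K₂ u₂ ^ (1 - lam) * supp L₂ u₂ ^ lam :=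
        add_le_add e1 e2
    _ ≤ (supp K₁ u₁ + supp K₂ u₂) ^ (1 - lam) * (supp L₁ u₁ + supp L₂ u₂) ^ lam :=
        holder2 ha hb hc hd h0 h1
    _ ≤ supp (prodSet K₁ K₂) u ^ (1 - lam) * supp (prodSet L₁ L₂) u ^ lam := by
        have i1 := Real.rpow_le_rpow (add_nonneg ha hb) hK h1'.le
        have i2 := Real.rpow_le_rpow (add_nonneg hc hd) hL h0.le
        exact mul_le_mul i1 i2 (Real.rpow_nonneg (add_nonneg hc hd) _)
          (Real.rpow_nonneg ((add_nonneg ha hb).trans hK) _)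

/-- **Closure under Cartesian products.** -/
theorem logBM_prod {lam : ℝ} (h0 : 0 < lam) (h1 : lam < 1)
    {K₁ L₁ : Set (ι → ℝ)} {K₂ L₂ : Set (κ → ℝ)}
    (hK₁ne : K₁.Nonempty) (hK₁b : Bornology.IsBounded K₁) (hK₁s : ∀ y ∈ K₁, -y ∈ K₁)
    (hL₁ne : L₁.Nonempty) (hL₁b : Bornology.IsBounded L₁) (hL₁s : ∀ y ∈ L₁, -y ∈ L₁)
    (hK₂ne : K₂.Nonempty) (hK₂b : Bornology.IsBounded K₂) (hK₂s : ∀ y ∈ K₂, -y ∈ K₂)
    (hL₂ne : L₂.Nonempty) (hL₂b : Bornology.IsBounded L₂) (hL₂s : ∀ y ∈ L₂, -y ∈ L₂)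
    (H₁ : LogBM lam K₁ L₁) (H₂ : LogBM lam K₂ L₂) :
    LogBM lam (prodSet K₁ K₂) (prodSet L₁ L₂) := by
  have h1' : 0 < 1 - lam := by linarith
  unfold LogBM at *
  calc volume (prodSet K₁ K₂) ^ (1 - lam) * volume (prodSet L₁ L₂) ^ lam
      = (volume K₁ ^ (1 - lam) * volume L₁ ^ lam) * (volume K₂ ^ (1 - lam) * volume L₂ ^ lam) := by
        rw [volume_prodSet, volume_prodSet, ENNReal.mul_rpow_of_nonneg _ _ h1'.le,
          ENNReal.mul_rpow_of_nonneg _ _ h0.le]
        ring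
    _ ≤ volume (logSum lam K₁ L₁) * volume (logSum lam K₂ L₂) := mul_le_mul' H₁ H₂
    _ = volume (prodSet (logSum lam K₁ L₁) (logSum lam K₂ L₂)) := (volume_prodSet _ _).symm
    _ ≤ volume (logSum lam (prodSet K₁ K₂) (prodSet L₁ L₂)) :=
        measure_mono (prodSet_logSum_subset h0 h1 hK₁ne hK₁b hK₁s hL₁ne hL₁b hL₁s
          hK₂ne hK₂b hK₂s hL₂ne hL₂b hL₂s)

end product

section segment

theorem seg_nonempty {s : ℝ} (hs : 0 ≤ s) : (seg s).Nonempty :=
  ⟨0, by simpa [seg] using hs⟩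

theorem seg_symm (s : ℝ) : ∀ y ∈ seg s, -y ∈ seg s := by
  intro y hy
  simpa [seg] using hy

theorem seg_bounded (s : ℝ) : Bornology.IsBounded (seg s) := by
  rw [isBounded_iff_forall_norm_le]
  refine ⟨max s 0, fun x hx => ?_⟩
  rw [pi_norm_le_iff_of_nonneg (le_max_right _ _)]
  intro i
  rw [Real.norm_eq_abs]
  exact le_max_of_le_left hx

theorem volume_seg (s : ℝ) : volume (seg s) = ENNReal.ofReal (2 * s) := by
  have hmp := volume_preserving_funUnique Unit ℝ
  have hset : seg s = (MeasurableEquiv.funUnique Unit ℝ) ⁻¹' (Set.Icc (-s) s) := by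
    ext x
    simp [seg, abs_le]
  rw [hset, hmp.measure_preimage_equiv, Real.volume_Icc]
  congr 1
  ring

/-- The one-dimensional case: segments satisfy the logarithmic Brunn–Minkowski inequality. -/
theorem logBM_seg {lam : ℝ} (h0 : 0 < lam) (h1 : lam < 1) {s t : ℝ} (hs : 0 < s) (ht : 0 < t) :
    LogBM lam (seg s) (seg t) := by
  have h1' : 0 < 1 - lam := by linarith
  set r : ℝ := s ^ (1 - lam) * t ^ lam with hr
  have hsub : seg r ⊆ logSum lam (seg s) (seg t) := by
    intro x hx u hu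
    have hu1 : u () * u () = 1 := by simpa [dotProduct] using hu
    have hxu : x ⬝ᵥ u ≤ r := by
      have habs : |u ()| = 1 := by
        have : |u ()| * |u ()| = 1 := by rw [← abs_mul, hu1, abs_one]
        nlinarith [abs_nonneg (u ())]
      calc x ⬝ᵥ u = x () * u () := by simp [dotProduct]
        _ ≤ |x () * u ()| := le_abs_self _
        _ = |x ()| := by rw [abs_mul, habs, mul_one]
        _ ≤ r := hx
    have hsupp : ∀ {c : ℝ}, 0 < c → c ≤ supp (seg c) u := by
      intro c hc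
      have hy : (fun _ : Unit => c * u ()) ∈ seg c := by
        have habs : |u ()| = 1 := by
          have : |u ()| * |u ()| = 1 := by rw [← abs_mul, hu1, abs_one]
          nlinarith [abs_nonneg (u ())]
        simp [seg, abs_mul, habs, abs_of_pos hc]
      have := le_supp (seg_bounded c) hy u
      have e : (fun _ : Unit => c * u ()) ⬝ᵥ u = c := by
        simp only [dotProduct, Finset.univ_unique, Finset.sum_singleton]
        rw [mul_assoc, hu1, mul_one]
      rw [e] at this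
      exact this
    calc x ⬝ᵥ u ≤ r := hxu
      _ ≤ supp (seg s) u ^ (1 - lam) * supp (seg t) u ^ lam := by
          have i1 := Real.rpow_le_rpow hs.le (hsupp hs) h1'.le
          have i2 := Real.rpow_le_rpow ht.le (hsupp ht) h0.le
          exact mul_le_mul i1 i2 (Real.rpow_nonneg ht.le _)
            (Real.rpow_nonneg (hs.le.trans (hsupp hs)) _)
  unfold LogBM
  calc volume (seg s) ^ (1 - lam) * volume (seg t) ^ lam
      = ENNReal.ofReal (2 * r) := by
        rw [volume_seg, volume_seg, ENNReal.ofReal_rpow_of_pos (by positivity),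
          ENNReal.ofReal_rpow_of_pos (by positivity), ← ENNReal.ofReal_mul (by positivity)]
        congr 1
        rw [Real.mul_rpow (by norm_num) hs.le, Real.mul_rpow (by norm_num) ht.le, hr]
        have h2 : (2 : ℝ) ^ (1 - lam) * (2 : ℝ) ^ lam = 2 := by
          rw [← Real.rpow_add (by norm_num)]
          simp
        calc (2 : ℝ) ^ (1 - lam) * s ^ (1 - lam) * ((2 : ℝ) ^ lam * t ^ lam)
            = ((2 : ℝ) ^ (1 - lam) * (2 : ℝ) ^ lam) * (s ^ (1 - lam) * t ^ lam) := by ring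
          _ = 2 * (s ^ (1 - lam) * t ^ lam) := by rw [h2]
    _ = volume (seg r) := (volume_seg r).symm
    _ ≤ volume (logSum lam (seg s) (seg t)) := measure_mono hsub

end segment

end Vale.Agent.Lib.Helper8.LogBM

namespace Vale.Agent.Lib.Helper8.LogBM

section dilate
open scoped Pointwise
variable {ι : Type*} [Fintype ι]

theorem smul_nonempty' {K : Set (ι → ℝ)} (hne : K.Nonempty) (s : ℝ) : (s • K).Nonempty :=
  hne.smul_set

theorem smul_bounded' {K : Set (ι → ℝ)} (hb : Bornology.IsBounded K) (s : ℝ) :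
    Bornology.IsBounded (s • K) :=
  hb.smul₀ s

theorem smul_symm' {K : Set (ι → ℝ)} (hs : ∀ y ∈ K, -y ∈ K) (s : ℝ) :
    ∀ y ∈ s • K, -y ∈ s • K := by
  rintro _ ⟨y, hy, rfl⟩
  exact ⟨-y, hs y hy, by simp⟩

/-- `s * h_K(u) ≤ h_{sK}(u)` for `s > 0`. -/
theorem mul_supp_le_smul {K : Set (ι → ℝ)} (hne : K.Nonempty) (hb : Bornology.IsBounded K)
    {s : ℝ} (hs : 0 < s) (u : ι → ℝ) : s * supp K u ≤ supp (s • K) u := by
  have : supp K u ≤ supp (s • K) u / s := by
    refine supp_le hne fun y hy => ?_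
    rw [le_div_iff₀ hs]
    have := le_supp (smul_bounded' hb s) (Set.smul_mem_smul_set (a := s) hy) u
    rw [smul_dotProduct, smul_eq_mul] at this
    linarith
  rw [le_div_iff₀ hs] at this
  linarith

/-- Dilates: the pair `(K, sK)` satisfies the logarithmic Brunn–Minkowski inequality. -/
theorem logBM_dilate {lam : ℝ} (h0 : 0 < lam) (h1 : lam < 1) {K : Set (ι → ℝ)}
    (hne : K.Nonempty) (hb : Bornology.IsBounded K) (hsym : ∀ y ∈ K, -y ∈ K)
    {s : ℝ} (hs : 0 < s) : LogBM lam K (s • K) := by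
  have h1' : 0 < 1 - lam := by linarith
  have hsub : (s ^ lam) • K ⊆ logSum lam K (s • K) := by
    rintro _ ⟨y, hy, rfl⟩ u _
    have hh := supp_nonneg hne hb hsym u
    have hyu := le_supp hb hy u
    have hsl : 0 < s ^ lam := Real.rpow_pos_of_pos hs _
    have e : supp K u ^ (1 - lam) * (s * supp K u) ^ lam = s ^ lam * supp K u := by
      rw [Real.mul_rpow hs.le hh]
      rcases hh.eq_or_lt with h | h
      · rw [← h, Real.zero_rpow h1'.ne']
        simp
      · have : supp K u ^ (1 - lam) * supp K u ^ lam = supp K u := by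
          rw [← Real.rpow_add h]
          simp
        calc supp K u ^ (1 - lam) * (s ^ lam * supp K u ^ lam)
            = s ^ lam * (supp K u ^ (1 - lam) * supp K u ^ lam) := by ring
          _ = s ^ lam * supp K u := by rw [this]
    show (s ^ lam • y) ⬝ᵥ u ≤ supp K u ^ (1 - lam) * supp (s • K) u ^ lam
    rw [smul_dotProduct, smul_eq_mul]
    calc s ^ lam * (y ⬝ᵥ u) ≤ s ^ lam * supp K u := by gcongr
      _ = supp K u ^ (1 - lam) * (s * supp K u) ^ lam := e.symm
      _ ≤ supp K u ^ (1 - lam) * supp (s • K) u ^ lam := by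
          have i2 := Real.rpow_le_rpow (mul_nonneg hs.le hh) (mul_supp_le_smul hne hb hs u) h0.le
          exact mul_le_mul_of_nonneg_left i2 (Real.rpow_nonneg hh _)
  have hfin : volume K ≠ ⊤ := hb.measure_lt_top.ne
  set n := Module.finrank ℝ (ι → ℝ) with hn
  have hv1 : volume (s • K) = ENNReal.ofReal (s ^ n) * volume K := by
    rw [Measure.addHaar_smul, abs_of_pos (pow_pos hs n)]
  have hv2 : volume ((s ^ lam) • K) = ENNReal.ofReal ((s ^ lam) ^ n) * volume K := by
    rw [Measure.addHaar_smul, abs_of_pos (pow_pos (Real.rpow_pos_of_pos hs _) n)]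
  unfold LogBM
  calc volume K ^ (1 - lam) * volume (s • K) ^ lam
      = ENNReal.ofReal ((s ^ lam) ^ n) * volume K := by
        rw [hv1, ENNReal.mul_rpow_of_nonneg _ _ h0.le,
          ENNReal.ofReal_rpow_of_pos (pow_pos hs n)]
        have e1 : (s ^ n) ^ lam = (s ^ lam) ^ n := by
          rw [← Real.rpow_natCast, ← Real.rpow_natCast, ← Real.rpow_mul hs.le,
            ← Real.rpow_mul hs.le, mul_comm]
        rw [e1]
        have e2 : volume K ^ (1 - lam) * volume K ^ lam = volume K := by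
          by_cases hz : volume K = 0
          · rw [hz, ENNReal.zero_rpow_of_pos h1']
            simp
          · rw [← ENNReal.rpow_add _ _ hz hfin]
            simp
        calc volume K ^ (1 - lam) * (ENNReal.ofReal ((s ^ lam) ^ n) * volume K ^ lam)
            = ENNReal.ofReal ((s ^ lam) ^ n) * (volume K ^ (1 - lam) * volume K ^ lam) := by ring
          _ = ENNReal.ofReal ((s ^ lam) ^ n) * volume K := by rw [e2]
    _ = volume ((s ^ lam) • K) := hv2.symm
    _ ≤ volume (logSum lam K (s • K)) := measure_mono hsub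

end dilate

end Vale.Agent.Lib.Helper8.LogBM

namespace Vale.Agent.Lib.Helper8.LogBM

section tensor
variable {ι κ : Type*} [Fintype ι] [Fintype κ]

/-- The support function of a product is at most the sum of the support functions. -/
theorem supp_prod_le {A : Set (ι → ℝ)} {B : Set (κ → ℝ)} (hAne : A.Nonempty)
    (hAb : Bornology.IsBounded A) (hBne : B.Nonempty) (hBb : Bornology.IsBounded B)
    (u : ι ⊕ κ → ℝ) :
    supp (prodSet A B) u ≤ supp A (fun i => u (Sum.inl i)) + supp B (fun j => u (Sum.inr j)) := by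
  refine supp_le (prodSet_nonempty hAne hBne) fun z hz => ?_
  rw [dot_sum]
  exact add_le_add (le_supp hAb hz.1 _) (le_supp hBb hz.2 _)

theorem supp_zero_le {K : Set (ι → ℝ)} (hne : K.Nonempty) : supp K 0 ≤ 0 :=
  supp_le hne fun y _ => by rw [dotProduct_zero]

/-- The logarithmic combination of two products lies in the product of the logarithmic
combinations. -/
theorem logSum_prodSet_subset {lam : ℝ} (h0 : 0 < lam) (h1 : lam < 1)
    {K₁ L₁ : Set (ι → ℝ)} {K₂ L₂ : Set (κ → ℝ)}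
    (hK₁ne : K₁.Nonempty) (hK₁b : Bornology.IsBounded K₁) (hK₁s : ∀ y ∈ K₁, -y ∈ K₁)
    (hL₁ne : L₁.Nonempty) (hL₁b : Bornology.IsBounded L₁) (hL₁s : ∀ y ∈ L₁, -y ∈ L₁)
    (hK₂ne : K₂.Nonempty) (hK₂b : Bornology.IsBounded K₂) (hK₂s : ∀ y ∈ K₂, -y ∈ K₂)
    (hL₂ne : L₂.Nonempty) (hL₂b : Bornology.IsBounded L₂) (hL₂s : ∀ y ∈ L₂, -y ∈ L₂) :
    logSum lam (prodSet K₁ K₂) (prodSet L₁ L₂) ⊆
      prodSet (logSum lam K₁ L₁) (logSum lam K₂ L₂) := by
  have h1' : 0 < 1 - lam := by linarith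
  have hKP0 := fun u => supp_nonneg (prodSet_nonempty hK₁ne hK₂ne) (prodSet_bounded hK₁b hK₂b)
    (prodSet_symm hK₁s hK₂s) u
  have hLP0 := fun u => supp_nonneg (prodSet_nonempty hL₁ne hL₂ne) (prodSet_bounded hL₁b hL₂b)
    (prodSet_symm hL₁s hL₂s) u
  intro z hz
  refine ⟨fun u₁ hu₁ => ?_, fun u₂ hu₂ => ?_⟩
  · set u : ι ⊕ κ → ℝ := Sum.elim u₁ 0 with hu
    have hunit : u ⬝ᵥ u = 1 := by
      rw [dot_sum]
      simpa [hu] using hu₁
    have hzu := hz u hunit
    have e : z ⬝ᵥ u = (fun i => z (Sum.inl i)) ⬝ᵥ u₁ := by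
      rw [dot_sum]
      simp [hu]
    have hK : supp (prodSet K₁ K₂) u ≤ supp K₁ u₁ := by
      have := supp_prod_le hK₁ne hK₁b hK₂ne hK₂b u
      have h0' : supp K₂ (fun j => u (Sum.inr j)) ≤ 0 := by
        have e0 : (fun j => u (Sum.inr j)) = 0 := by
          funext j
          simp [hu]
        rw [e0]
        exact supp_zero_le hK₂ne
      have e1 : (fun i => u (Sum.inl i)) = u₁ := by
        funext i
        simp [hu]
      rw [e1] at this
      linarith
    have hL : supp (prodSet L₁ L₂) u ≤ supp L₁ u₁ := by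
      have := supp_prod_le hL₁ne hL₁b hL₂ne hL₂b u
      have h0' : supp L₂ (fun j => u (Sum.inr j)) ≤ 0 := by
        have e0 : (fun j => u (Sum.inr j)) = 0 := by
          funext j
          simp [hu]
        rw [e0]
        exact supp_zero_le hL₂ne
      have e1 : (fun i => u (Sum.inl i)) = u₁ := by
        funext i
        simp [hu]
      rw [e1] at this
      linarith
    rw [e] at hzu
    calc (fun i => z (Sum.inl i)) ⬝ᵥ u₁
        ≤ supp (prodSet K₁ K₂) u ^ (1 - lam) * supp (prodSet L₁ L₂) u ^ lam := hzu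
      _ ≤ supp K₁ u₁ ^ (1 - lam) * supp L₁ u₁ ^ lam :=
          mul_le_mul (Real.rpow_le_rpow (hKP0 u) hK h1'.le) (Real.rpow_le_rpow (hLP0 u) hL h0.le)
            (Real.rpow_nonneg (hLP0 u) _) (Real.rpow_nonneg ((hKP0 u).trans hK) _)
  · set u : ι ⊕ κ → ℝ := Sum.elim 0 u₂ with hu
    have hunit : u ⬝ᵥ u = 1 := by
      rw [dot_sum]
      simpa [hu] using hu₂
    have hzu := hz u hunit
    have e : z ⬝ᵥ u = (fun j => z (Sum.inr j)) ⬝ᵥ u₂ := by
      rw [dot_sum]
      simp [hu]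
    have hK : supp (prodSet K₁ K₂) u ≤ supp K₂ u₂ := by
      have := supp_prod_le hK₁ne hK₁b hK₂ne hK₂b u
      have h0' : supp K₁ (fun i => u (Sum.inl i)) ≤ 0 := by
        have e0 : (fun i => u (Sum.inl i)) = 0 := by
          funext i
          simp [hu]
        rw [e0]
        exact supp_zero_le hK₁ne
      have e1 : (fun j => u (Sum.inr j)) = u₂ := by
        funext j
        simp [hu]
      rw [e1] at this
      linarith
    have hL : supp (prodSet L₁ L₂) u ≤ supp L₂ u₂ := by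
      have := supp_prod_le hL₁ne hL₁b hL₂ne hL₂b u
      have h0' : supp L₁ (fun i => u (Sum.inl i)) ≤ 0 := by
        have e0 : (fun i => u (Sum.inl i)) = 0 := by
          funext i
          simp [hu]
        rw [e0]
        exact supp_zero_le hL₁ne
      have e1 : (fun j => u (Sum.inr j)) = u₂ := by
        funext j
        simp [hu]
      rw [e1] at this
      linarith
    rw [e] at hzu
    calc (fun j => z (Sum.inr j)) ⬝ᵥ u₂
        ≤ supp (prodSet K₁ K₂) u ^ (1 - lam) * supp (prodSet L₁ L₂) u ^ lam := hzu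
      _ ≤ supp K₂ u₂ ^ (1 - lam) * supp L₂ u₂ ^ lam :=
          mul_le_mul (Real.rpow_le_rpow (hKP0 u) hK h1'.le) (Real.rpow_le_rpow (hLP0 u) hL h0.le)
            (Real.rpow_nonneg (hLP0 u) _) (Real.rpow_nonneg ((hKP0 u).trans hK) _)

/-- **The logarithmic combination of products is the product of the logarithmic combinations.** -/
theorem logSum_prodSet {lam : ℝ} (h0 : 0 < lam) (h1 : lam < 1)
    {K₁ L₁ : Set (ι → ℝ)} {K₂ L₂ : Set (κ → ℝ)}
    (hK₁ne : K₁.Nonempty) (hK₁b : Bornology.IsBounded K₁) (hK₁s : ∀ y ∈ K₁, -y ∈ K₁)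
    (hL₁ne : L₁.Nonempty) (hL₁b : Bornology.IsBounded L₁) (hL₁s : ∀ y ∈ L₁, -y ∈ L₁)
    (hK₂ne : K₂.Nonempty) (hK₂b : Bornology.IsBounded K₂) (hK₂s : ∀ y ∈ K₂, -y ∈ K₂)
    (hL₂ne : L₂.Nonempty) (hL₂b : Bornology.IsBounded L₂) (hL₂s : ∀ y ∈ L₂, -y ∈ L₂) :
    logSum lam (prodSet K₁ K₂) (prodSet L₁ L₂) =
      prodSet (logSum lam K₁ L₁) (logSum lam K₂ L₂) :=
  Set.Subset.antisymm
    (logSum_prodSet_subset h0 h1 hK₁ne hK₁b hK₁s hL₁ne hL₁b hL₁s hK₂ne hK₂b hK₂s hL₂ne hL₂b hL₂s)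
    (prodSet_logSum_subset h0 h1 hK₁ne hK₁b hK₁s hL₁ne hL₁b hL₁s hK₂ne hK₂b hK₂s hL₂ne hL₂b hL₂s)

end tensor

end Vale.Agent.Lib.Helper8.LogBM

namespace Vale.Agent.Lib.Helper8.LogBM

section cylinder

theorem supp_seg_le {s : ℝ} (hs : 0 ≤ s) {u : Unit → ℝ} (hu : u ⬝ᵥ u = 1) : supp (seg s) u ≤ s := by
  have hu1 : u () * u () = 1 := by simpa [dotProduct] using hu
  have habs : |u ()| = 1 := by
    have : |u ()| * |u ()| = 1 := by rw [← abs_mul, hu1, abs_one]
    nlinarith [abs_nonneg (u ())]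
  refine supp_le (seg_nonempty hs) fun y hy => ?_
  calc y ⬝ᵥ u = y () * u () := by simp [dotProduct]
    _ ≤ |y () * u ()| := le_abs_self _
    _ = |y ()| := by rw [abs_mul, habs, mul_one]
    _ ≤ s := hy

/-- The logarithmic combination of two segments is the segment of the geometric mean. -/
theorem logSum_seg {lam : ℝ} (h0 : 0 < lam) (h1 : lam < 1) {s t : ℝ} (hs : 0 < s) (ht : 0 < t) :
    volume (logSum lam (seg s) (seg t)) = ENNReal.ofReal (2 * (s ^ (1 - lam) * t ^ lam)) := by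
  have h1' : 0 < 1 - lam := by linarith
  set r : ℝ := s ^ (1 - lam) * t ^ lam with hr
  have hsub : logSum lam (seg s) (seg t) ⊆ seg r := by
    intro x hx
    have key : ∀ u : Unit → ℝ, u ⬝ᵥ u = 1 → x ⬝ᵥ u ≤ r := by
      intro u hu
      have hsu := supp_seg_le hs.le hu
      have htu := supp_seg_le ht.le hu
      have hs0 := supp_nonneg (seg_nonempty hs.le) (seg_bounded s) (seg_symm s) u
      have ht0 := supp_nonneg (seg_nonempty ht.le) (seg_bounded t) (seg_symm t) u
      calc x ⬝ᵥ u ≤ supp (seg s) u ^ (1 - lam) * supp (seg t) u ^ lam := hx u hu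
        _ ≤ s ^ (1 - lam) * t ^ lam :=
            mul_le_mul (Real.rpow_le_rpow hs0 hsu h1'.le) (Real.rpow_le_rpow ht0 htu h0.le)
              (Real.rpow_nonneg ht0 _) (Real.rpow_nonneg hs.le _)
    have k1 := key (fun _ => 1) (by simp [dotProduct])
    have k2 := key (fun _ => -1) (by simp [dotProduct])
    simp only [dotProduct, Finset.univ_unique, Finset.sum_singleton, mul_one, mul_neg] at k1 k2
    show |x ()| ≤ r
    rw [abs_le]
    constructor
    · have : x default = x () := rfl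
      linarith
    · have : x default = x () := rfl
      linarith
  have hsup : seg r ⊆ logSum lam (seg s) (seg t) := by
    intro x hx u hu
    have hu1 : u () * u () = 1 := by simpa [dotProduct] using hu
    have habs : |u ()| = 1 := by
      have : |u ()| * |u ()| = 1 := by rw [← abs_mul, hu1, abs_one]
      nlinarith [abs_nonneg (u ())]
    have hxu : x ⬝ᵥ u ≤ r := by
      calc x ⬝ᵥ u = x () * u () := by simp [dotProduct]
        _ ≤ |x () * u ()| := le_abs_self _
        _ = |x ()| := by rw [abs_mul, habs, mul_one]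
        _ ≤ r := hx
    have hsupp : ∀ {c : ℝ}, 0 < c → c ≤ supp (seg c) u := by
      intro c hc
      have hy : (fun _ : Unit => c * u ()) ∈ seg c := by
        simp [seg, abs_mul, habs, abs_of_pos hc]
      have := le_supp (seg_bounded c) hy u
      have e : (fun _ : Unit => c * u ()) ⬝ᵥ u = c := by
        simp only [dotProduct, Finset.univ_unique, Finset.sum_singleton]
        rw [mul_assoc, hu1, mul_one]
      rw [e] at this
      exact this
    calc x ⬝ᵥ u ≤ r := hxu
      _ ≤ supp (seg s) u ^ (1 - lam) * supp (seg t) u ^ lam := by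
          have i1 := Real.rpow_le_rpow hs.le (hsupp hs) h1'.le
          have i2 := Real.rpow_le_rpow ht.le (hsupp ht) h0.le
          exact mul_le_mul i1 i2 (Real.rpow_nonneg ht.le _)
            (Real.rpow_nonneg (hs.le.trans (hsupp hs)) _)
  rw [Set.Subset.antisymm hsub hsup, volume_seg]

theorem seg_pow_eq {lam : ℝ} (h0 : 0 < lam) (h1 : lam < 1) {s t : ℝ} (hs : 0 < s) (ht : 0 < t) :
    volume (seg s) ^ (1 - lam) * volume (seg t) ^ lam =
      ENNReal.ofReal (2 * (s ^ (1 - lam) * t ^ lam)) := by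
  rw [volume_seg, volume_seg, ENNReal.ofReal_rpow_of_pos (by positivity),
    ENNReal.ofReal_rpow_of_pos (by positivity), ← ENNReal.ofReal_mul (by positivity)]
  congr 1
  rw [Real.mul_rpow (by norm_num) hs.le, Real.mul_rpow (by norm_num) ht.le]
  have h2 : (2 : ℝ) ^ (1 - lam) * (2 : ℝ) ^ lam = 2 := by
    rw [← Real.rpow_add (by norm_num)]
    simp
  calc (2 : ℝ) ^ (1 - lam) * s ^ (1 - lam) * ((2 : ℝ) ^ lam * t ^ lam)
      = ((2 : ℝ) ^ (1 - lam) * (2 : ℝ) ^ lam) * (s ^ (1 - lam) * t ^ lam) := by ring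
    _ = 2 * (s ^ (1 - lam) * t ^ lam) := by rw [h2]

variable {ι : Type*} [Fintype ι]

/-- Cylinders: the inequality for `(K × [-s, s], L × [-t, t])` is equivalent to the inequality
for `(K, L)`. -/
theorem logBM_cylinder_iff {lam : ℝ} (h0 : 0 < lam) (h1 : lam < 1) {K L : Set (ι → ℝ)}
    (hKne : K.Nonempty) (hKb : Bornology.IsBounded K) (hKs : ∀ y ∈ K, -y ∈ K)
    (hLne : L.Nonempty) (hLb : Bornology.IsBounded L) (hLs : ∀ y ∈ L, -y ∈ L)
    {s t : ℝ} (hs : 0 < s) (ht : 0 < t) :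
    LogBM lam (prodSet K (seg s)) (prodSet L (seg t)) ↔ LogBM lam K L := by
  have h1' : 0 < 1 - lam := by linarith
  have hc0 : ENNReal.ofReal (2 * (s ^ (1 - lam) * t ^ lam)) ≠ 0 := by
    rw [Ne, ENNReal.ofReal_eq_zero, not_le]
    positivity
  have hct : ENNReal.ofReal (2 * (s ^ (1 - lam) * t ^ lam)) ≠ ⊤ := ENNReal.ofReal_ne_top
  unfold LogBM
  rw [logSum_prodSet h0 h1 hKne hKb hKs hLne hLb hLs (seg_nonempty hs.le) (seg_bounded s)
    (seg_symm s) (seg_nonempty ht.le) (seg_bounded t) (seg_symm t), volume_prodSet, volume_prodSet,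
    volume_prodSet, ENNReal.mul_rpow_of_nonneg _ _ h1'.le, ENNReal.mul_rpow_of_nonneg _ _ h0.le,
    logSum_seg h0 h1 hs ht]
  have e : volume K ^ (1 - lam) * volume (seg s) ^ (1 - lam) *
      (volume L ^ lam * volume (seg t) ^ lam) =
      (volume K ^ (1 - lam) * volume L ^ lam) *
        ENNReal.ofReal (2 * (s ^ (1 - lam) * t ^ lam)) := by
    rw [← seg_pow_eq h0 h1 hs ht]
    ring
  rw [e]
  exact ENNReal.mul_le_mul_iff_left hc0 hct

end cylinder

end Vale.Agent.Lib.Helper8.LogBM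

namespace Vale.Agent.Lib.Helper8.LogBM

/-- An origin-symmetric convex body in `ℝ^ι`: convex, compact, with nonempty interior, and
invariant under `y ↦ -y`. -/
def SymBody {ι : Type*} [Fintype ι] (K : Set (ι → ℝ)) : Prop :=
  Convex ℝ K ∧ IsCompact K ∧ (interior K).Nonempty ∧ ∀ y ∈ K, -y ∈ K

section selfimprove
variable {ι κ : Type*} [Fintype ι] [Fintype κ]

theorem SymBody.nonempty {K : Set (ι → ℝ)} (h : SymBody K) : K.Nonempty :=
  h.2.2.1.mono interior_subset

theorem SymBody.bounded {K : Set (ι → ℝ)} (h : SymBody K) : Bornology.IsBounded K :=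
  h.2.1.isBounded

theorem SymBody.symm {K : Set (ι → ℝ)} (h : SymBody K) : ∀ y ∈ K, -y ∈ K := h.2.2.2

theorem continuous_inl_part : Continuous (fun z : ι ⊕ κ → ℝ => fun i => z (Sum.inl i)) :=
  continuous_pi fun i => continuous_apply (Sum.inl i)

theorem continuous_inr_part : Continuous (fun z : ι ⊕ κ → ℝ => fun j => z (Sum.inr j)) :=
  continuous_pi fun j => continuous_apply (Sum.inr j)

theorem symBody_prod {K₁ : Set (ι → ℝ)} {K₂ : Set (κ → ℝ)} (h₁ : SymBody K₁) (h₂ : SymBody K₂) :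
    SymBody (prodSet K₁ K₂) := by
  refine ⟨?_, ?_, ?_, prodSet_symm h₁.symm h₂.symm⟩
  · intro x hx y hy a b ha hb hab
    exact ⟨h₁.1 hx.1 hy.1 ha hb hab, h₂.1 hx.2 hy.2 ha hb hab⟩
  · rw [Metric.isCompact_iff_isClosed_bounded]
    refine ⟨?_, prodSet_bounded h₁.bounded h₂.bounded⟩
    exact (h₁.2.1.isClosed.preimage continuous_inl_part).inter
      (h₂.2.1.isClosed.preimage continuous_inr_part)
  · obtain ⟨a, ha⟩ := h₁.2.2.1
    obtain ⟨b, hb⟩ := h₂.2.2.1
    refine ⟨Sum.elim a b, ?_⟩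
    rw [mem_interior]
    refine ⟨(fun z : ι ⊕ κ → ℝ => fun i => z (Sum.inl i)) ⁻¹' interior K₁ ∩
      (fun z : ι ⊕ κ → ℝ => fun j => z (Sum.inr j)) ⁻¹' interior K₂, ?_, ?_, ?_⟩
    · intro z hz
      exact ⟨interior_subset hz.1, interior_subset hz.2⟩
    · exact (isOpen_interior.preimage continuous_inl_part).inter
        (isOpen_interior.preimage continuous_inr_part)
    · exact ⟨by simpa using ha, by simpa using hb⟩

/-- **Self-improvement (tensor power argument).**  If the logarithmic Brunn–Minkowski inequality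
holds up to a constant factor `C` for all origin-symmetric convex bodies in all dimensions, then
it holds with constant one. -/
theorem logBM_of_weak {lam : ℝ} (h0 : 0 < lam) (h1 : lam < 1) (C : ℝ)
    (hweak : ∀ (ι : Type) [Fintype ι] (K L : Set (ι → ℝ)), SymBody K → SymBody L →
      volume K ^ (1 - lam) * volume L ^ lam ≤ ENNReal.ofReal C * volume (logSum lam K L)) :
    ∀ (ι : Type) [Fintype ι] (K L : Set (ι → ℝ)), SymBody K → SymBody L → LogBM lam K L := by
  have h1' : 0 < 1 - lam := by linarith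
  have step : ∀ j : ℕ, ∀ (ι : Type) [Fintype ι] (K L : Set (ι → ℝ)), SymBody K → SymBody L →
      (volume K ^ (1 - lam) * volume L ^ lam) ^ (2 ^ j) ≤
        ENNReal.ofReal C * volume (logSum lam K L) ^ (2 ^ j) := by
    intro j
    induction j with
    | zero =>
      intro ι _ K L hK hL
      simpa using hweak ι K L hK hL
    | succ j ih =>
      intro ι _ K L hK hL
      have := ih (ι ⊕ ι) (prodSet K K) (prodSet L L) (symBody_prod hK hK) (symBody_prod hL hL)
      rw [logSum_prodSet h0 h1 hK.nonempty hK.bounded hK.symm hL.nonempty hL.bounded hL.symm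
        hK.nonempty hK.bounded hK.symm hL.nonempty hL.bounded hL.symm, volume_prodSet,
        volume_prodSet, volume_prodSet, ENNReal.mul_rpow_of_nonneg _ _ h1'.le,
        ENNReal.mul_rpow_of_nonneg _ _ h0.le] at this
      have e1 : volume K ^ (1 - lam) * volume K ^ (1 - lam) * (volume L ^ lam * volume L ^ lam) =
          (volume K ^ (1 - lam) * volume L ^ lam) ^ 2 := by ring
      have e2 : volume (logSum lam K L) * volume (logSum lam K L) =
          volume (logSum lam K L) ^ 2 := by ring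
      rw [e1, e2, ← pow_mul, ← pow_mul] at this
      rw [pow_succ, mul_comm (2 ^ j) 2]
      exact this
  intro ι _ K L hK hL
  unfold LogBM
  have hA : volume K ^ (1 - lam) * volume L ^ lam ≠ ⊤ :=
    ENNReal.mul_ne_top (ENNReal.rpow_ne_top_of_nonneg h1'.le hK.bounded.measure_lt_top.ne)
      (ENNReal.rpow_ne_top_of_nonneg h0.le hL.bounded.measure_lt_top.ne)
  by_contra hlt
  rw [not_le] at hlt
  have hB : volume (logSum lam K L) ≠ ⊤ := ne_top_of_lt hlt
  set a : ℝ := (volume K ^ (1 - lam) * volume L ^ lam).toReal with ha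
  set b : ℝ := (volume (logSum lam K L)).toReal with hb
  have hab : b < a := (ENNReal.toReal_lt_toReal hB hA).mpr hlt
  have hb0 : 0 ≤ b := ENNReal.toReal_nonneg
  have hreal : ∀ j : ℕ, a ^ (2 ^ j) ≤ max C 0 * b ^ (2 ^ j) := by
    intro j
    have h2 := ENNReal.toReal_mono
      (ENNReal.mul_ne_top ENNReal.ofReal_ne_top (ENNReal.pow_ne_top hB)) (step j ι K L hK hL)
    have e1 : ((volume K ^ (1 - lam) * volume L ^ lam) ^ (2 ^ j)).toReal = a ^ (2 ^ j) := by
      rw [ENNReal.toReal_pow]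
    have e2 : (ENNReal.ofReal C * volume (logSum lam K L) ^ (2 ^ j)).toReal =
        max C 0 * b ^ (2 ^ j) := by
      rw [ENNReal.toReal_mul, ENNReal.toReal_pow, ENNReal.toReal_ofReal']
    rw [e1, e2] at h2
    exact h2
  rcases hb0.eq_or_lt with hbz | hbpos
  · have h3 := hreal 0
    rw [← hbz] at h3
    simp at h3
    linarith
  · have hq : 1 < a / b := (one_lt_div hbpos).mpr hab
    obtain ⟨j, hj⟩ := exists_nat_gt (max C 0 / (a / b - 1))
    have h3 := hreal j
    have h4 : (a / b) ^ (2 ^ j) ≤ max C 0 := by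
      rw [div_pow, div_le_iff₀ (pow_pos hbpos _)]
      exact h3
    have hbern := one_add_mul_le_pow (a := a / b - 1) (by linarith) (2 ^ j)
    have hjj : (j : ℝ) < (2 : ℝ) ^ j := by exact_mod_cast Nat.lt_two_pow_self
    have h5 : max C 0 < (2 : ℝ) ^ j * (a / b - 1) := by
      rw [div_lt_iff₀ (by linarith)] at hj
      nlinarith
    have h6 : (1 : ℝ) + ((2 ^ j : ℕ) : ℝ) * (a / b - 1) ≤ (a / b) ^ (2 ^ j) := by
      have e : 1 + (a / b - 1) = a / b := by ring
      rw [e] at hbern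
      exact hbern
    push_cast at h6
    linarith

end selfimprove

end Vale.Agent.Lib.Helper8.LogBM

namespace Vale.Agent.Lib.Helper8.LogBM

section segbody

theorem symBody_seg {s : ℝ} (hs : 0 < s) : SymBody (seg s) := by
  refine ⟨?_, ?_, ?_, seg_symm s⟩
  · intro x hx y hy a b ha hb hab
    have hx' : |x ()| ≤ s := hx
    have hy' : |y ()| ≤ s := hy
    show |(a • x + b • y) ()| ≤ s
    simp only [Pi.add_apply, Pi.smul_apply, smul_eq_mul]
    calc |a * x () + b * y ()| ≤ |a * x ()| + |b * y ()| := abs_add_le _ _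
      _ = a * |x ()| + b * |y ()| := by rw [abs_mul, abs_mul, abs_of_nonneg ha, abs_of_nonneg hb]
      _ ≤ a * s + b * s := by gcongr
      _ = s := by rw [← add_mul, hab, one_mul]
  · rw [Metric.isCompact_iff_isClosed_bounded]
    refine ⟨?_, seg_bounded s⟩
    exact isClosed_le ((continuous_apply ()).abs) continuous_const
  · refine ⟨0, ?_⟩
    rw [mem_interior]
    refine ⟨{x : Unit → ℝ | |x ()| < s}, fun x (hx : |x ()| < s) => show |x ()| ≤ s from hx.le,
      ?_, by simpa using hs⟩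
    exact isOpen_lt ((continuous_apply ()).abs) continuous_const

end segbody

end Vale.Agent.Lib.Helper8.LogBM
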